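import Vale.Agent.P371m.FinalAll
import Vale.Agent.P371m.Complex
import Vale.Agent.P371m.Core

/-!
The sharp Lieb-Thirring constant at `γ = 1` in one dimension, for matrix valued potentials of every
size: `L_1(m) = L_1(1) = L^(1)_1 = 4 / (3 √3 π)`.
-/

open Matrix MeasureTheory
open scoped ComplexOrder ContDiff

theorem Vale.Agent.Results.P371.AGammaOneAllM.result
    (m n : ℕ) (W : ℝ → Matrix (Fin m) (Fin m) ℂ)
    (hWm : ∀ i j, Measurable fun x => W x i j)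
    (hWpsd : ∀ x, (W x).PosSemidef)
    (hint : Integrable fun x => ∑ α, ((hWpsd x).1.eigenvalues α) ^ ((3 : ℝ) / 2))
    (ψ : Fin n → ℝ → Fin m → ℂ)
    (hsm : ∀ j, ContDiff ℝ ∞ (ψ j))
    (hcs : ∀ j, HasCompactSupport (ψ j))
    (hON : ∀ j k, ∫ x, star (ψ j x) ⬝ᵥ ψ k x = if j = k then 1 else 0)
    (Q : Matrix (Fin n) (Fin n) ℂ)
    (hQ : ∀ j k, Q j k = (∫ x, star (deriv (ψ j) x) ⬝ᵥ deriv (ψ k) x) -
      ∫ x, star (ψ j x) ⬝ᵥ (W x *ᵥ ψ k x)) :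
    ∃ hQH : Q.IsHermitian, ∑ j, max (-hQH.eigenvalues j) 0 ≤
      (4 / (3 * √3 * Real.pi)) *
        ∫ x, ∑ α, ((hWpsd x).1.eigenvalues α) ^ ((3 : ℝ) / 2) := by
  have hpi := Real.pi_pos
  have h3 : (√3) ^ 2 = 3 := Real.sq_sqrt (by norm_num)
  have h3p : 0 < √3 := by positivity
  refine Vale.Agent.P371m.final_of_kinetic hWm hWpsd hsm hcs hON hQ hint
    (K := Real.pi ^ 2 / 4) (by positivity) (by positivity) ?_ ?_
  · have : 27 * (4 / (3 * √3 * Real.pi)) ^ 2 * (Real.pi ^ 2 / 4) = 4 := by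
      field_simp
      nlinarith [h3]
    exact this.ge
  · intro ι _ _ φ h1 h2 h3'
    exact Vale.Agent.P371m.kinetic_of_core
      (Vale.Agent.P371m.core_matrix (Vale.Agent.P371m.dblΨ φ) (Vale.Agent.P371m.dbl_smooth h1)
        (Vale.Agent.P371m.dbl_support h2) (Vale.Agent.P371m.dbl_gram h1 h2 h3')) h1 h2
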