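import Vale.Agent.P371k.Final
import Vale.Agent.P371k.KKForm

/-!
A bound on the whole range `1 < γ < 3/2`, for matrix valued potentials of every size:
`L_γ(m) ≤ (4/3)^(3/2-γ) L^cl_γ`, where `L^cl_γ = Γ(γ+1) / (2 √π Γ(γ+3/2))`. At `γ = 1` this factor
is `2/√3`, which gives the sharp value `4/(3√3π)`, and at `γ = 3/2` it is `1`, the sharp value `3/16`.
-/

open Matrix MeasureTheory
open scoped ComplexOrder ContDiff

theorem Vale.Agent.Results.P371.AGammaRangeBound.result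
    {γ : ℝ} (h1 : 1 < γ) (h2 : γ < 3 / 2)
    (m n : ℕ) (W : ℝ → Matrix (Fin m) (Fin m) ℂ)
    (hWm : ∀ i j, Measurable fun x => W x i j)
    (hWpsd : ∀ x, (W x).PosSemidef)
    (hint : Integrable fun x => ∑ α, ((hWpsd x).1.eigenvalues α) ^ (γ + 1 / 2))
    (ψ : Fin n → ℝ → Fin m → ℂ)
    (hsm : ∀ j, ContDiff ℝ ∞ (ψ j))
    (hcs : ∀ j, HasCompactSupport (ψ j))
    (hON : ∀ j k, ∫ x, star (ψ j x) ⬝ᵥ ψ k x = if j = k then 1 else 0)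
    (Q : Matrix (Fin n) (Fin n) ℂ)
    (hQ : ∀ j k, Q j k = (∫ x, star (deriv (ψ j) x) ⬝ᵥ deriv (ψ k) x) -
      ∫ x, star (ψ j x) ⬝ᵥ (W x *ᵥ ψ k x)) :
    ∃ hQH : Q.IsHermitian, ∑ j, (max (-hQH.eigenvalues j) 0) ^ γ ≤
      ((4 / 3 : ℝ) ^ (3 / 2 - γ) *
        (Real.Gamma (γ + 1) / (2 * √Real.pi * Real.Gamma (γ + 3 / 2)))) *
        ∫ x, ∑ α, ((hWpsd x).1.eigenvalues α) ^ (γ + 1 / 2) := by
  rw [← Vale.Agent.P371k.KK_eq h1 h2]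
  exact Vale.Agent.P371k.final_gamma h1 h2 m n W hWm hWpsd hint ψ hsm hcs hON Q hQ
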