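import Vale.Agent.P371h8.Final

namespace Vale.Agent.Results.P371.ASharpGammaOne
open BigOperators Real MeasureTheory

/-- The Lieb-Thirring conjecture at `γ = 1` in one dimension, with the sharp constant
`L = 4/(3√3π)`, which is the one bound state constant `L^(1)_1 = 2 (1/3)^(1/2) L^cl_1`.
For every orthonormal family `ψ i` of real `C¹` functions with `ψ i, ψ i'` in `L²(ℝ)`:
(1) the kinetic inequality `∑ ∫ ψ i'^2 ≥ (π²/4) ∫ ρ³`, `ρ = ∑ ψ i^2`;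
(2) for every measurable `V ≥ 0` with `V^(3/2)` integrable, the total energy of the family in
`-d²/dx² - V` is at least `-L ∫ V^(3/2)`;
(3) if the `ψ i` are normalized eigenfunctions of `-d²/dx² - V` with eigenvalues `lam i ≤ 0`
(only the identity `lam i = ∫ ψ i'^2 - ∫ V ψ i^2` is used) then `∑ |lam i| ≤ L ∫ V^(3/2)`. -/
theorem result (N : ℕ) (V : ℝ → ℝ) (hVm : Measurable V) (hV0 : ∀ x, 0 ≤ V x)
    (hV : Integrable fun x => V x ^ (3 / 2 : ℝ))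
    (ψ ψ' : Fin N → ℝ → ℝ) (hd : ∀ i x, HasDerivAt (ψ i) (ψ' i x) x)
    (hc' : ∀ i, Continuous (ψ' i))
    (hL2 : ∀ i, Integrable fun x => ψ i x ^ 2) (hL2' : ∀ i, Integrable fun x => ψ' i x ^ 2)
    (horth : ∀ i j, ∫ x, ψ i x * ψ j x = if i = j then 1 else 0) :
    (π ^ 2 / 4 * ∫ x, (∑ i, ψ i x ^ 2) ^ 3 ≤ ∑ i, ∫ x, ψ' i x ^ 2) ∧
    (-(4 / (3 * √3 * π) * ∫ x, V x ^ (3 / 2 : ℝ)) ≤
      ∑ i, ((∫ x, ψ' i x ^ 2) - ∫ x, V x * ψ i x ^ 2)) ∧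
    (∀ lam : Fin N → ℝ, (∀ i, lam i ≤ 0) →
      (∀ i, lam i = (∫ x, ψ' i x ^ 2) - ∫ x, V x * ψ i x ^ 2) →
      ∑ i, |lam i| ≤ 4 / (3 * √3 * π) * ∫ x, V x ^ (3 / 2 : ℝ)) := by
  have hc : ∀ i, Continuous (ψ i) :=
    fun i => continuous_iff_continuousAt.2 fun x => (hd i x).continuousAt
  have h1 := Vale.Agent.P371h8.core hd hc' hL2 hL2'
    (Vale.Agent.P371h8.gram_of_orthonormal hc hL2 horth)
  have h2 := (Vale.Agent.P371h8.energy_bound V hVm hV0 hV ψ ψ' hd hc' hL2 hL2' horth).2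
  refine ⟨h1, h2, fun lam hlam heq => ?_⟩
  have h3 : ∑ i, |lam i| = -∑ i, ((∫ x, ψ' i x ^ 2) - ∫ x, V x * ψ i x ^ 2) := by
    rw [← Finset.sum_neg_distrib]
    refine Finset.sum_congr rfl fun i _ => ?_
    rw [abs_of_nonpos (hlam i), heq i]
  rw [h3]
  linarith

end Vale.Agent.Results.P371.ASharpGammaOne
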