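import Vale.Agent.Lib.P371.Main
import Vale.Agent.Lib.P371.Ratio

/-!
A new explicit upper bound for the one dimensional matrix Lieb-Thirring constants `L_γ(m)`, `γ > 1/2`,
together with its comparison with the semiclassical and the one bound state constants.
-/

open Matrix MeasureTheory
open scoped ComplexOrder

theorem Vale.Agent.Results.P371.ExplicitBoundCompared.result
    (γ : ℝ) (hγ : 1 / 2 < γ) :
    ∃ C : ℝ,
      C = (1 / Real.pi) * γ ^ (1 - 2 * γ) * ((γ + 1 / 2) * (γ - 1 / 2)) ^ (γ - 1 / 2) *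
        (Real.pi / (2 * (γ + 1 / 2) * Real.sin (Real.pi / (2 * (γ + 1 / 2))))) ^ (γ + 1 / 2) ∧
      (γ ≤ 1 →
        C < 2 * ((1 / (2 * Real.pi)) * ∫ ξ : ℝ, (max (1 - ξ ^ 2) 0) ^ γ) ∧
        C ≤ (1 + (3 / 2) * (γ - 1 / 2)) * (2 * ((γ - 1 / 2) / (γ + 1 / 2)) ^ (γ - 1 / 2) *
          ((1 / (2 * Real.pi)) * ∫ ξ : ℝ, (max (1 - ξ ^ 2) 0) ^ γ))) ∧
      (γ = 1 → C ≤ (173 / 100) * ((1 / (2 * Real.pi)) * ∫ ξ : ℝ, (max (1 - ξ ^ 2) 0) ^ γ)) ∧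
      ∀ (m n : ℕ) (W : ℝ → Matrix (Fin m) (Fin m) ℂ)
        (_ : ∀ i j, Measurable fun x => W x i j)
        (hWpsd : ∀ x, (W x).PosSemidef)
        (_ : Integrable fun x => ∑ α, ((hWpsd x).1.eigenvalues α) ^ (γ + 1 / 2))
        (ψ : Fin n → ℝ → Fin m → ℂ)
        (_ : ∀ j, ContDiff ℝ 1 (ψ j))
        (_ : ∀ j, HasCompactSupport (ψ j))
        (_ : ∀ j k, ∫ x, star (ψ j x) ⬝ᵥ ψ k x = if j = k then 1 else 0)
        (Q : Matrix (Fin n) (Fin n) ℂ)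
        (_ : ∀ j k, Q j k = (∫ x, star (deriv (ψ j) x) ⬝ᵥ deriv (ψ k) x) -
          ∫ x, star (ψ j x) ⬝ᵥ (W x *ᵥ ψ k x)),
        ∃ hQH : Q.IsHermitian, ∑ j, (max (-hQH.eigenvalues j) 0) ^ γ ≤
          C * ∫ x, ∑ α, ((hWpsd x).1.eigenvalues α) ^ (γ + 1 / 2) := by
  refine ⟨Vale.Agent.P371.Cst γ, rfl, ?_, ?_, ?_⟩
  · intro h2
    exact ⟨Vale.Agent.P371.Cst_lt_two_Lcl hγ h2, Vale.Agent.P371.Cst_le_L1 hγ h2⟩
  · rintro rfl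
    exact Vale.Agent.P371.Cst_one_le
  · intro m n W hWm hWpsd hint ψ hC1 hcs hON Q hQ
    exact Vale.Agent.P371.main_theorem hγ hWm hWpsd hint hC1 hcs hON hQ
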