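import Vale.Agent.Lib.P371.Kin6
import Vale.Agent.Lib.P371.Kin7

/-!
A new bound for the sum of the negative eigenvalues (`γ = 1`) with matrix valued potentials:
`L_1(m) ≤ 1.449 L^cl_1` for every `m`.
-/

open Matrix MeasureTheory
open scoped ComplexOrder ContDiff

theorem Vale.Agent.Results.P371.MatrixGammaOne.result
    (m n : ℕ) (W : ℝ → Matrix (Fin m) (Fin m) ℂ)
    (hWm : ∀ i j, Measurable fun x => W x i j)
    (hWpsd : ∀ x, (W x).PosSemidef)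
    (hint : Integrable fun x => ∑ α, ((hWpsd x).1.eigenvalues α) ^ ((3 : ℝ) / 2))
    (ψ : Fin n → ℝ → Fin m → ℂ)
    (hsm : ∀ j, ContDiff ℝ ∞ (ψ j))
    (hcs : ∀ j, HasCompactSupport (ψ j))
    (hON : ∀ j k, ∫ x, star (ψ j x) ⬝ᵥ ψ k x = if j = k then 1 else 0)
    (Q : Matrix (Fin n) (Fin n) ℂ)
    (hQ : ∀ j k, Q j k = (∫ x, star (deriv (ψ j) x) ⬝ᵥ deriv (ψ k) x) -
      ∫ x, star (ψ j x) ⬝ᵥ (W x *ᵥ ψ k x)) :
    ∃ hQH : Q.IsHermitian, ∑ j, max (-hQH.eigenvalues j) 0 ≤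
      (1449 / 1000 : ℝ) * (2 / (3 * Real.pi)) *
        ∫ x, ∑ α, ((hWpsd x).1.eigenvalues α) ^ ((3 : ℝ) / 2) := by
  refine Vale.Agent.P371.final_bound hWm hWpsd hsm hcs hON hQ hint Vale.Agent.P371.weightF ?_
    Vale.Agent.P371.final_numeric
  have := Real.pi_pos
  positivity
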