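import Vale.Agent.Lib.P371.Main

/-!
A new explicit upper bound for the one dimensional matrix Lieb-Thirring constants `L_γ(m)`, `γ > 1/2`,
stated on trial spaces of continuously differentiable compactly supported functions.
-/

open Matrix MeasureTheory
open scoped ComplexOrder

theorem Vale.Agent.Results.P371.TrialSpaceBound.result
    (m n : ℕ) (γ : ℝ) (hγ : 1 / 2 < γ)
    (W : ℝ → Matrix (Fin m) (Fin m) ℂ)
    (hWm : ∀ i j, Measurable fun x => W x i j)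
    (hWpsd : ∀ x, (W x).PosSemidef)
    (hint : Integrable fun x => ∑ α, ((hWpsd x).1.eigenvalues α) ^ (γ + 1 / 2))
    (ψ : Fin n → ℝ → Fin m → ℂ)
    (hC1 : ∀ j, ContDiff ℝ 1 (ψ j))
    (hcs : ∀ j, HasCompactSupport (ψ j))
    (hON : ∀ j k, ∫ x, star (ψ j x) ⬝ᵥ ψ k x = if j = k then 1 else 0)
    (Q : Matrix (Fin n) (Fin n) ℂ)
    (hQ : ∀ j k, Q j k = (∫ x, star (deriv (ψ j) x) ⬝ᵥ deriv (ψ k) x) -
      ∫ x, star (ψ j x) ⬝ᵥ (W x *ᵥ ψ k x)) :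
    ∃ hQH : Q.IsHermitian, ∑ j, (max (-hQH.eigenvalues j) 0) ^ γ ≤
      ((1 / Real.pi) * γ ^ (1 - 2 * γ) * ((γ + 1 / 2) * (γ - 1 / 2)) ^ (γ - 1 / 2) *
        (Real.pi / (2 * (γ + 1 / 2) * Real.sin (Real.pi / (2 * (γ + 1 / 2))))) ^ (γ + 1 / 2)) *
      ∫ x, ∑ α, ((hWpsd x).1.eigenvalues α) ^ (γ + 1 / 2) :=
  Vale.Agent.P371.main_theorem hγ hWm hWpsd hint hC1 hcs hON hQ
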